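import Vale.Agent.Lib.P084.Main

/-!
# Tingley's problem is separably determined

(1) If a family `C` of separable subspaces of a real normed space `X` is cofinal among the
separable subsets of `X` and closed under closures of increasing countable unions, and every member
of `C` has the Mazur-Ulam property with respect to separable Banach targets, then `X` has the
Mazur-Ulam property (with respect to all Banach targets).

(2) Consequently Tingley's problem for all real Banach spaces is equivalent to Tingley's problem
for separable real Banach spaces.
-/

namespace Vale.Agent.Results.P084.SeparableReduction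

open Vale.Agent.Lib.P084 TopologicalSpace

universe u

theorem result :
    (∀ (X : Type u) [NormedAddCommGroup X] [NormedSpace ℝ X] (C : Set (Submodule ℝ X)),
      IsClub C → (∀ E ∈ C, MazurUlamSep E) → MazurUlam X) ∧
    ((∀ (X : Type u) [NormedAddCommGroup X] [NormedSpace ℝ X] [CompleteSpace X]
        [SeparableSpace X], MazurUlamSep X) ↔
      (∀ (X : Type u) [NormedAddCommGroup X] [NormedSpace ℝ X] [CompleteSpace X],
        MazurUlam X)) := by
  refine ⟨fun X _ _ C hC hMU => mazurUlam_of_club hC hMU, ⟨fun h X _ _ _ => ?_, fun h X _ _ _ _ => ?_⟩⟩
  · refine mazurUlam_of_club isClub_closed_separable ?_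
    rintro E ⟨hEc, hEs⟩
    have : CompleteSpace E := hEc.completeSpace_coe
    have : SeparableSpace E := hEs.separableSpace
    exact h E
  · intro Y _ _ _ _ f hf hs
    exact h X Y f hf hs

end Vale.Agent.Results.P084.SeparableReduction
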